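import Vale.Agent.Lib.P224.Iso

namespace Vale.Agent.Results.P224.Isoparametric

open Vale.Agent.Lib.P224 Real

/-- The Münzner volume of a minimal isoparametric hypersurface with `g ≥ 3` principal curvatures
exceeds `(π/2) |S^m|`, hence the Clifford value `a_m`; for `g = 2` the formula gives the Clifford
volumes themselves. -/
theorem result :
    (∀ g m1 m2 m : ℕ, 3 ≤ g → 1 ≤ m1 → 1 ≤ m2 → 2 * m = g * (m1 + m2) →
      IsLeast (cliffordVol m '' Set.Ico 1 m) (cliffordVol m (m / 2)) ∧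
      cliffordVol m (m / 2) ≤ π / 2 * sphereVol m ∧
      π / 2 * sphereVol m < isoVol g m1 m2 m) ∧
    (∀ m1 m2 : ℕ, 1 ≤ m1 → 1 ≤ m2 → isoVol 2 m1 m2 (m1 + m2) = cliffordVol (m1 + m2) m1) := by
  constructor
  · intro g m1 m2 m hg h1 h2 hm
    have hm2 : 2 ≤ m := by nlinarith
    refine ⟨⟨⟨m / 2, ⟨by omega, by omega⟩, rfl⟩, ?_⟩, ?_, iso_lower hg h1 h2 hm⟩
    · rintro _ ⟨k, ⟨hk1, hk2⟩, rfl⟩
      exact clifford_min hk1 hk2
    · exact (clifford_min le_rfl (by omega)).trans (clifford_upper hm2)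
  · intro m1 m2 h1 h2
    rw [isoVol_eq h1 h2]
    have := sphereVol_pos (m1 + m2 + 1)
    field_simp
    norm_num

end Vale.Agent.Results.P224.Isoparametric
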