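import Vale.Agent.Results.P224.CliffordMinimum
import Vale.Agent.Results.P224.Isoparametric

namespace Vale.Agent.Results.P224.A_Combined

open Vale.Agent.Lib.P224 Real Filter Topology

/-- The analysis of the conjectured least volume `a_m` together with the comparison of the Münzner
volumes of minimal isoparametric hypersurfaces with `a_m`. -/
theorem result :
    ((∀ m : ℕ, 2 ≤ m →
      IsLeast (cliffordVol m '' Set.Ico 1 m) (cliffordVol m (m / 2)) ∧
      (∀ k ∈ Set.Ico 1 m, k ≠ m / 2 → k ≠ m - m / 2 → cliffordVol m (m / 2) < cliffordVol m k) ∧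
      √2 * sphereVol m < cliffordVol m (m / 2) ∧
      cliffordVol m (m / 2) ≤ π / 2 * sphereVol m ∧
      cliffordVol (m + 1) ((m + 1) / 2) / sphereVol (m + 1)
        < cliffordVol m (m / 2) / sphereVol m) ∧
    Tendsto (fun m : ℕ => cliffordVol m (m / 2) / sphereVol m) atTop (𝓝 √2)) ∧
    ((∀ g m1 m2 m : ℕ, 3 ≤ g → 1 ≤ m1 → 1 ≤ m2 → 2 * m = g * (m1 + m2) →
      IsLeast (cliffordVol m '' Set.Ico 1 m) (cliffordVol m (m / 2)) ∧
      cliffordVol m (m / 2) ≤ π / 2 * sphereVol m ∧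
      π / 2 * sphereVol m < isoVol g m1 m2 m) ∧
    (∀ m1 m2 : ℕ, 1 ≤ m1 → 1 ≤ m2 → isoVol 2 m1 m2 (m1 + m2) = cliffordVol (m1 + m2) m1)) :=
  ⟨Vale.Agent.Results.P224.CliffordMinimum.result, Vale.Agent.Results.P224.Isoparametric.result⟩

end Vale.Agent.Results.P224.A_Combined
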