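import Vale.Agent.Lib.P224.Clifford

namespace Vale.Agent.Results.P224.CliffordMinimum

open Vale.Agent.Lib.P224 Real Filter Topology

/-- Complete analysis of the conjectured least volume `a_m = min_{1 ≤ k < m} Vol(C_{k,m-k})`. -/
theorem result :
    (∀ m : ℕ, 2 ≤ m →
      IsLeast (cliffordVol m '' Set.Ico 1 m) (cliffordVol m (m / 2)) ∧
      (∀ k ∈ Set.Ico 1 m, k ≠ m / 2 → k ≠ m - m / 2 → cliffordVol m (m / 2) < cliffordVol m k) ∧
      √2 * sphereVol m < cliffordVol m (m / 2) ∧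
      cliffordVol m (m / 2) ≤ π / 2 * sphereVol m ∧
      cliffordVol (m + 1) ((m + 1) / 2) / sphereVol (m + 1)
        < cliffordVol m (m / 2) / sphereVol m) ∧
    Tendsto (fun m : ℕ => cliffordVol m (m / 2) / sphereVol m) atTop (𝓝 √2) := by
  refine ⟨fun m hm => ⟨⟨⟨m / 2, ⟨by omega, by omega⟩, rfl⟩, ?_⟩, ?_, ?_, ?_, ?_⟩, ratio_tendsto⟩
  · rintro _ ⟨k, ⟨hk1, hk2⟩, rfl⟩
    exact clifford_min hk1 hk2
  · rintro k ⟨hk1, hk2⟩ h1 h2
    exact clifford_min_strict hk1 hk2 h1 h2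
  · exact clifford_lower (by omega) (by omega)
  · exact (clifford_min le_rfl (by omega)).trans (clifford_upper hm)
  · exact ratio_strictAnti hm

end Vale.Agent.Results.P224.CliffordMinimum
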